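import Vale.Agent.P235.R2.H453.WallE
import Mathlib.Analysis.SpecialFunctions.Exp

set_option linter.all false

/-!
# P235, the wall lemma: walls around a point

For a vertex `x` and levels `s0 < s1 ≤ lev x`, the probability that no boundary of a component
around `x` at a level in `[s0, s1)` is contracted is at most
`exp (- (1/(2L)) ∑ 1 / wid t x)`, the sum over the levels `t ≥ s0` with `t + wid t x < s1`.
-/

namespace Vale.Agent.P235.Wall

open Finset

variable {V : Type} {G : SimpleGraph V} {o : V}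

/-- the boundary around `x` at level `s` is contracted to one point -/
def Cut (G : SimpleGraph V) (o : V) (ω : Finset (ℕ × ℕ)) (s : ℕ) (x : V) : Prop :=
  ∀ a ∈ bd G o s x, ∀ b ∈ bd G o s x, dw (walls G o ω) a b = 0

lemma cut_of_mem {ω : Finset (ℕ × ℕ)} {t k : ℕ} {x : V} (hk : 2 ^ k ≤ wid G o t x)
    (hk' : wid G o t x < 2 ^ (k + 1)) (hs : t + 2 ^ k < lev G o x) (hω : (k, t + 2 ^ k) ∈ ω) :
    Cut G o ω (t + 2 ^ k) x := by
  intro a ha b hb
  have hp : 0 < 2 ^ k := by positivity
  refine dw_jump ⟨?_, k, ?_, x, ?_, ?_⟩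
  · rw [ha.1, hb.1]
  · rw [ha.1]
    have hx : (walls G o ω).W k (t + 2 ^ k) x := by
      refine ⟨hω, by omega, ?_, ?_, ?_⟩
      · rw [Nat.add_sub_cancel]; omega
      · rw [Nat.add_sub_cancel]; exact hk
      · rw [Nat.add_sub_cancel]; exact hk'
    refine (walls G o ω).inv _ _ _ _ ?_ hx
    rw [Nat.add_sub_cancel]
    obtain ⟨h1, a', h2, h3⟩ := ha
    have h4 : Rch G o t x a' := h3.mono (by omega)
    exact h4.step h2.symm (by omega)
  · rw [ha.1]; exact ha
  · rw [ha.1]; exact hb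

open Classical in
/-- the levels which give a wall around `x` between `s0` and `s1` -/
noncomputable def tl (G : SimpleGraph V) (o : V) (s0 s1 : ℕ) (x : V) : Finset ℕ :=
  (Finset.Ico s0 s1).filter fun t => 1 ≤ wid G o t x ∧ t + wid G o t x < s1

/-- the pair of the level `t` -/
noncomputable def pairOf (G : SimpleGraph V) (o : V) (x : V) (t : ℕ) : ℕ × ℕ :=
  (Nat.log 2 (wid G o t x), t + 2 ^ Nat.log 2 (wid G o t x))

lemma pairOf_inj (G : SimpleGraph V) (o : V) (x : V) : Function.Injective (pairOf G o x) := by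
  intro t t' h
  have h1 : Nat.log 2 (wid G o t x) = Nat.log 2 (wid G o t' x) := congrArg Prod.fst h
  have h2 : t + 2 ^ Nat.log 2 (wid G o t x) = t' + 2 ^ Nat.log 2 (wid G o t' x) :=
    congrArg Prod.snd h
  rw [h1] at h2
  omega

open Classical in
theorem uncut_le {N : ℕ} (hN : ∀ v, lev G o v < N) {L : ℝ} (hL : 1 ≤ L) {x : V} {s0 s1 : ℕ}
    (hs : s1 ≤ lev G o x) :
    ∑ ω ∈ (box N).powerset, (if ∃ s, s0 ≤ s ∧ s < s1 ∧ Cut G o ω s x then 0 else wt L N ω) ≤
      Real.exp (-(1 / (2 * L)) * ∑ t ∈ tl G o s0 s1 x, 1 / (wid G o t x : ℝ)) := by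
  have hL0 : 0 < L := by linarith
  set A : Finset (ℕ × ℕ) := (tl G o s0 s1 x).image (pairOf G o x) with hA
  have hpow : ∀ t ∈ tl G o s0 s1 x, 2 ^ Nat.log 2 (wid G o t x) ≤ wid G o t x := by
    intro t ht
    have h1 := (Finset.mem_filter.1 ht).2.1
    exact Nat.pow_log_le_self 2 (by omega)
  have hpow' : ∀ t : ℕ, wid G o t x < 2 ^ (Nat.log 2 (wid G o t x) + 1) := fun t =>
    Nat.lt_pow_succ_log_self (by norm_num) _
  have hlt : ∀ t ∈ tl G o s0 s1 x, t + 2 ^ Nat.log 2 (wid G o t x) < s1 := by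
    intro t ht
    have h1 := (Finset.mem_filter.1 ht).2.2
    have h2 := hpow t ht
    omega
  have hAbox : A ⊆ box N := by
    intro κ hκ
    rw [hA, Finset.mem_image] at hκ
    obtain ⟨t, ht, rfl⟩ := hκ
    have h1 := hlt t ht
    have h2 := hN x
    have h3 : Nat.log 2 (wid G o t x) < 2 ^ Nat.log 2 (wid G o t x) := Nat.lt_two_pow_self
    unfold box pairOf
    rw [Finset.mem_product, Finset.mem_range, Finset.mem_range]
    constructor
    · show Nat.log 2 (wid G o t x) < N
      omega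
    · show t + 2 ^ Nat.log 2 (wid G o t x) < N
      omega
  have h1 : ∑ ω ∈ (box N).powerset,
      (if ∃ s, s0 ≤ s ∧ s < s1 ∧ Cut G o ω s x then 0 else wt L N ω) ≤
      ∑ ω ∈ (box N).powerset, (if Disjoint ω A then wt L N ω else 0) := by
    refine Finset.sum_le_sum fun ω _ => ?_
    by_cases hd : Disjoint ω A
    · rw [if_pos hd]
      split_ifs
      · exact wt_nonneg hL N ω
      · exact le_rfl
    · rw [if_neg hd]
      rw [Finset.not_disjoint_iff] at hd
      obtain ⟨κ, h2, h3⟩ := hd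
      rw [hA, Finset.mem_image] at h3
      obtain ⟨t, ht, rfl⟩ := h3
      have h4 := hlt t ht
      have h5 : s0 ≤ t := (Finset.mem_Ico.1 (Finset.mem_filter.1 ht).1).1
      rw [if_pos ⟨t + 2 ^ Nat.log 2 (wid G o t x), h5.trans (Nat.le_add_right _ _), h4,
        cut_of_mem (hpow t ht) (hpow' t) (by omega) h2⟩]
  refine h1.trans ?_
  rw [sum_wt_disjoint hAbox, hA, Finset.prod_image fun t _ t' _ h => pairOf_inj G o x h,
    Finset.mul_sum, Real.exp_sum]
  refine Finset.prod_le_prod (fun t _ => by linarith [pr_le_one hL (pairOf G o x t)])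
    fun t ht => ?_
  have h2 : (0 : ℝ) < wid G o t x := by
    have := (Finset.mem_filter.1 ht).2.1
    exact_mod_cast this
  have h3 : (2 : ℝ) ^ (Nat.log 2 (wid G o t x) + 1) ≤ 2 * wid G o t x := by
    have := hpow t ht
    rw [pow_succ]
    have h4 : ((2 ^ Nat.log 2 (wid G o t x) : ℕ) : ℝ) ≤ (wid G o t x : ℝ) := by exact_mod_cast this
    push_cast at h4
    linarith
  have h5 : 1 / (2 * L) * (1 / (wid G o t x : ℝ)) ≤ pr L (pairOf G o x t) := by
    unfold pr pairOf
    rw [one_div_mul_one_div]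
    refine one_div_le_one_div_of_le (by positivity) ?_
    calc L * 2 ^ (Nat.log 2 (wid G o t x) + 1) ≤ L * (2 * wid G o t x) :=
          mul_le_mul_of_nonneg_left h3 hL0.le
      _ = 2 * L * wid G o t x := by ring
  have h6 := Real.add_one_le_exp (-(1 / (2 * L)) * (1 / (wid G o t x : ℝ)))
  linarith

end Vale.Agent.P235.Wall
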